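import Mathlib

/-!
# P193 (Boone-Higman conjecture): the case of finite groups

Every finite group embeds in a finitely presented simple group (an alternating group).
-/

namespace Vale.Agent.Results.P193.FiniteGroups

open Equiv

/-- Every finite group embeds in a finitely presented simple group. -/
theorem result (G : Type) [Group G] [Finite G] :
    ∃ (S : Type) (_ : Group S), IsSimpleGroup S ∧ Group.IsFinitelyPresented S ∧
      ∃ f : G →* S, Function.Injective f := by
  classical
  have : Fintype G := Fintype.ofFinite G
  -- the auxiliary finite type on which everything acts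
  let β := G ⊕ Fin 3
  -- Cayley embedding
  let f₁ : G →* Perm G := MulAction.toPermHom G G
  have hf₁ : Function.Injective f₁ := MulAction.toPerm_injective
  -- extend by the identity on `Fin 3`
  let f₂ : Perm G →* Perm β :=
    (Perm.sumCongrHom G (Fin 3)).comp (MonoidHom.inl (Perm G) (Perm (Fin 3)))
  have hf₂ : Function.Injective f₂ := by
    refine Perm.sumCongrHom_injective.comp ?_
    intro σ τ h
    exact congrArg Prod.fst h
  -- the doubling embedding into the alternating group
  let f₃ : Perm β →* Perm (β ⊕ β) :=
    (Perm.sumCongrHom β β).comp ((MonoidHom.id (Perm β)).prod (MonoidHom.id (Perm β)))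
  have hf₃ : Function.Injective f₃ := by
    refine Perm.sumCongrHom_injective.comp ?_
    intro σ τ h
    exact congrArg Prod.fst h
  have hmem : ∀ σ : Perm β, f₃ σ ∈ alternatingGroup (β ⊕ β) := by
    intro σ
    rw [Equiv.Perm.mem_alternatingGroup]
    simp [f₃, Equiv.Perm.sign_sumCongr]
  let f₄ : Perm β →* alternatingGroup (β ⊕ β) := f₃.codRestrict _ hmem
  have hf₄ : Function.Injective f₄ := by
    intro σ τ h
    apply hf₃
    exact congrArg Subtype.val h
  have hcard : 5 ≤ Nat.card (β ⊕ β) := by
    simp only [β, Nat.card_eq_fintype_card, Fintype.card_sum, Fintype.card_fin]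
    omega
  refine ⟨alternatingGroup (β ⊕ β), inferInstance, alternatingGroup.isSimpleGroup hcard,
    inferInstance, (f₄.comp f₂).comp f₁, ?_⟩
  exact (hf₄.comp hf₂).comp hf₁

end Vale.Agent.Results.P193.FiniteGroups
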